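import Mathlib

namespace Vale.Agent.P279

open Matrix

/-- If a family of rows has trivial common orthogonal complement, some square submatrix built
from the rows has nonzero determinant. -/
lemma exists_det_ne_zero {N K C : Type*} [Fintype N] [DecidableEq N] [Field K]
    (ρ : C → N → K) (h : ∀ x : N → K, (∀ c, ρ c ⬝ᵥ x = 0) → x = 0) :
    ∃ c : N → C, (Matrix.of fun a => ρ (c a)).det ≠ 0 := by
  classical
  have htop : Submodule.span K (Set.range ρ) = ⊤ := by
    by_contra hne
    obtain ⟨f, hf0, hf⟩ := Submodule.exists_le_ker_of_lt_top _ (lt_top_iff_ne_top.mpr hne)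
    apply hf0
    set x : N → K := fun b => f (fun j => if b = j then 1 else 0) with hx
    have hfx : ∀ y : N → K, f y = y ⬝ᵥ x := by
      intro y
      rw [LinearMap.pi_apply_eq_sum_univ f y]
      simp [dotProduct, hx]
    have hx0 : x = 0 := by
      apply h
      intro c
      rw [← hfx]
      exact hf (Submodule.subset_span ⟨c, rfl⟩)
    apply LinearMap.ext
    intro y
    rw [hfx, hx0]
    simp
  obtain ⟨b, hb, hspan, hli⟩ := exists_linearIndependent K (Set.range ρ)
  have hb_top : ⊤ ≤ Submodule.span K (Set.range ((↑) : b → N → K)) := by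
    rw [Subtype.range_coe, hspan, htop]
  let B := Module.Basis.mk hli hb_top
  let e : N ≃ b := (Pi.basisFun K N).indexEquiv B
  have hc : ∀ a : N, ∃ c : C, ρ c = (e a : N → K) := fun a => hb (e a).2
  choose c hc using hc
  refine ⟨c, ?_⟩
  have hrow : LinearIndependent K (Matrix.of fun a => ρ (c a)).row := by
    have : (Matrix.of fun a => ρ (c a)).row = ((↑) : b → N → K) ∘ e := by
      funext a
      simp only [Matrix.row, hc, Function.comp]
      rfl
    rw [this]
    exact hli.comp _ e.injective
  rw [Matrix.linearIndependent_rows_iff_isUnit, Matrix.isUnit_iff_isUnit_det] at hrow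
  exact hrow.ne_zero

end Vale.Agent.P279
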