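import Vale.Agent.P279.Mult
import Vale.Agent.P279.LinAlg

namespace Vale.Agent.P279

open MvPolynomial Matrix

lemma iterPderiv_sum {ι : Type*} (l : List (Fin 3)) (s : Finset ι)
    (f : ι → MvPolynomial (Fin 3) ℂ) :
    iterPderiv l (∑ x ∈ s, f x) = ∑ x ∈ s, iterPderiv l (f x) := by
  induction l with
  | nil => rfl
  | cons i l ih =>
    change pderiv i (iterPderiv l _) = ∑ x ∈ s, pderiv i (iterPderiv l (f x))
    rw [ih, map_sum]

lemma iterPderiv_C_mul (l : List (Fin 3)) (a : ℂ) (F : MvPolynomial (Fin 3) ℂ) :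
    iterPderiv l (C a * F) = C a * iterPderiv l F := by
  induction l with
  | nil => rfl
  | cons i l ih =>
    change pderiv i (iterPderiv l _) = C a * pderiv i (iterPderiv l F)
    rw [ih, pderiv_C_mul]

/-- Exponent vectors of degree `d`. -/
abbrev Expo (d : ℕ) : Finset (Fin 3 →₀ ℕ) := Finset.univ.finsuppAntidiag d

lemma mem_expo {d : ℕ} {a : Fin 3 →₀ ℕ} : a ∈ Expo d ↔ a.degree = d := by
  rw [Finset.mem_finsuppAntidiag, Finsupp.degree_eq_sum]
  simp

/-- The form of degree `d` with prescribed coefficients. -/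
noncomputable def polyOf (d : ℕ) (x : Expo d → ℂ) : MvPolynomial (Fin 3) ℂ :=
  ∑ b : Expo d, C (x b) * monomial b.1 1

lemma polyOf_isHomogeneous (d : ℕ) (x : Expo d → ℂ) : (polyOf d x).IsHomogeneous d := by
  apply IsHomogeneous.sum
  intro b _
  have h1 : (monomial b.1 (1 : ℂ)).IsHomogeneous d := isHomogeneous_monomial _ (mem_expo.mp b.2)
  exact h1.C_mul _

lemma coeff_polyOf (d : ℕ) (x : Expo d → ℂ) (b : Expo d) : coeff b.1 (polyOf d x) = x b := by
  classical
  rw [polyOf, coeff_sum]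
  rw [Finset.sum_eq_single b]
  · simp
  · intro b' _ hb'
    rw [coeff_C_mul, coeff_monomial, if_neg, mul_zero]
    intro h
    exact hb' (Subtype.ext h)
  · intro h
    exact absurd (Finset.mem_univ b) h

lemma polyOf_ne_zero {d : ℕ} {x : Expo d → ℂ} (hx : x ≠ 0) : polyOf d x ≠ 0 := by
  intro h
  apply hx
  funext b
  rw [← coeff_polyOf d x b, h]
  simp

lemma polyOf_coeff {d : ℕ} {F : MvPolynomial (Fin 3) ℂ} (hF : F.IsHomogeneous d) :
    polyOf d (fun b => coeff b.1 F) = F := by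
  classical
  ext a
  by_cases ha : a ∈ Expo d
  · exact coeff_polyOf d _ ⟨a, ha⟩
  · have h1 : a.degree ≠ d := fun h => ha (mem_expo.mpr h)
    rw [hF.coeff_eq_zero h1, (polyOf_isHomogeneous d _).coeff_eq_zero h1]

lemma eval_iterPderiv_polyOf (d : ℕ) (x : Expo d → ℂ) (w : Fin 3 → ℂ) (l : List (Fin 3)) :
    eval w (iterPderiv l (polyOf d x)) =
      (fun b : Expo d => eval w (iterPderiv l (monomial b.1 1))) ⬝ᵥ x := by
  rw [polyOf, iterPderiv_sum, map_sum, dotProduct]
  refine Finset.sum_congr rfl fun b _ => ?_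
  rw [iterPderiv_C_mul, map_mul, eval_C, mul_comm]

/-- Tuples of points carrying a curve of degree `d` with multiplicities at least `m`. -/
def curveLocus {r : ℕ} (d : ℕ) (m : Fin r → ℕ) : Set (Fin r → Pt) :=
  {p | ∃ F, IsCurveThrough p d m F}

/-- Square matrices of conditions, with polynomial entries. -/
noncomputable def condMatrix {r : ℕ} (d : ℕ) (c : Expo d → Fin r × List (Fin 3)) :
    Matrix (Expo d) (Expo d) (MvPolynomial (Fin r × Fin 3) ℂ) :=
  Matrix.of fun a b => rename (Prod.mk (c a).1) (iterPderiv (c a).2 (monomial b.1 1))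

lemma eval_det_condMatrix {r : ℕ} (d : ℕ) (c : Expo d → Fin r × List (Fin 3))
    (v : Fin r → Fin 3 → ℂ) :
    eval (fun x => v x.1 x.2) (condMatrix d c).det =
      (Matrix.of fun a b : Expo d =>
        eval (v (c a).1) (iterPderiv (c a).2 (monomial b.1 1))).det := by
  rw [RingHom.map_det]
  congr 1
  ext a b
  simp only [condMatrix, RingHom.mapMatrix_apply, Matrix.map_apply, Matrix.of_apply, eval_rename]
  rfl

lemma IsRep.multGE_iff {r : ℕ} {v : Fin r → Fin 3 → ℂ} {p : Fin r → Pt} (hv : IsRep v p)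
    {F : MvPolynomial (Fin 3) ℂ} {d : ℕ} (hF : F.IsHomogeneous d) (i : Fin r) (k : ℕ) :
    MultGE F (p i).rep k ↔ MultGE F (v i) k := by
  obtain ⟨h, hp⟩ := hv i
  rw [← hp]
  exact multGE_rep_iff hF h

lemma isRep_rep {r : ℕ} (p : Fin r → Pt) : IsRep (fun i => (p i).rep) p :=
  fun i => ⟨(p i).rep_nonzero, (p i).mk_rep⟩

theorem isZariskiClosed_curveLocus {r : ℕ} (d : ℕ) (m : Fin r → ℕ) :
    IsZariskiClosed (curveLocus d m) := by
  classical
  refine ⟨{f | ∃ c : Expo d → Fin r × List (Fin 3),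
    (∀ a, (c a).2.length < m (c a).1) ∧ f = (condMatrix d c).det}, fun p => ?_⟩
  constructor
  · rintro ⟨F, hF0, hFd, hFm⟩ v hv f ⟨c, hc, rfl⟩
    rw [eval_det_condMatrix, ← Matrix.exists_mulVec_eq_zero_iff]
    refine ⟨fun b => coeff b.1 F, ?_, ?_⟩
    · intro h
      apply hF0
      rw [← polyOf_coeff hFd, h]
      simp [polyOf]
    · funext a
      have h1 := eval_iterPderiv_polyOf d (fun b => coeff b.1 F) (v (c a).1) (c a).2
      rw [polyOf_coeff hFd] at h1
      have h2 : MultGE F (v (c a).1) (m (c a).1) := (hv.multGE_iff hFd _ _).mp (hFm _)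
      rw [h2 _ (hc a)] at h1
      simp only [Matrix.mulVec, Pi.zero_apply]
      rw [h1]
      rfl
  · intro h
    by_contra hno
    let Cnd := {c : Fin r × List (Fin 3) // c.2.length < m c.1}
    let ρ : Cnd → Expo d → ℂ := fun c b => eval (p c.1.1).rep (iterPderiv c.1.2 (monomial b.1 1))
    have hρ : ∀ x : Expo d → ℂ, (∀ c, ρ c ⬝ᵥ x = 0) → x = 0 := by
      intro x hx
      by_contra hx0
      apply hno
      refine ⟨polyOf d x, polyOf_ne_zero hx0, polyOf_isHomogeneous d x, fun i l hl => ?_⟩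
      rw [eval_iterPderiv_polyOf]
      exact hx ⟨(i, l), hl⟩
    obtain ⟨c, hc⟩ := exists_det_ne_zero ρ hρ
    apply hc
    have := h _ (isRep_rep p) _ ⟨fun a => (c a).1, fun a => (c a).2, rfl⟩
    have h3 := eval_det_condMatrix d (fun a => (c a).1) (fun i => (p i).rep)
    rw [this] at h3
    exact h3.symm

end Vale.Agent.P279
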