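import Mathlib

namespace Vale.Agent.P279

open Polynomial

lemma signVariations_le_card_support (n : ℕ) :
    ∀ P : ℝ[X], P.support.card ≤ n + 1 → P.signVariations ≤ n := by
  induction n with
  | zero =>
    intro P hP
    obtain ⟨k, a, rfl⟩ := card_support_le_one_iff_monomial.mp hP
    simp
  | succ n ih =>
    intro P hP
    have h1 := signVariations_le_eraseLead_succ P
    have h2 : P.eraseLead.support.card ≤ n + 1 := by
      rw [card_support_eraseLead]
      omega
    have h3 := ih _ h2
    omega

/-- A nonzero real polynomial with `N` terms has at most `N - 1` positive roots, counted with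
multiplicity. -/
lemma real_fewnomial {r : ℕ} (P : ℝ[X]) (hP : P ≠ 0) (t : Fin r → ℝ) (ht : Function.Injective t)
    (hpos : ∀ i, 0 < t i) (m : Fin r → ℕ) (hdvd : ∀ i, (X - C (t i)) ^ (m i) ∣ P) :
    ∑ i, m i + 1 ≤ P.support.card := by
  classical
  set s : Multiset ℝ := ∑ i, m i • ({t i} : Multiset ℝ) with hs
  have hle : s ≤ P.roots := by
    rw [Multiset.le_iff_count]
    intro a
    rw [count_roots, hs, Multiset.count_sum']
    by_cases ha : ∃ j, t j = a
    · obtain ⟨j, rfl⟩ := ha
      rw [Finset.sum_eq_single j]
      · simp only [Multiset.count_nsmul, Multiset.count_singleton_self, mul_one]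
        exact (le_rootMultiplicity_iff hP).mpr (hdvd j)
      · intro i _ hij
        rw [Multiset.count_nsmul, Multiset.count_singleton, if_neg, mul_zero]
        intro h
        exact hij (ht h.symm)
      · intro h
        exact absurd (Finset.mem_univ j) h
    · rw [Finset.sum_eq_zero]
      · exact Nat.zero_le _
      · intro i _
        rw [Multiset.count_nsmul, Multiset.count_singleton, if_neg, mul_zero]
        intro h
        exact ha ⟨i, h.symm⟩
  have hcard : Multiset.card s = ∑ i, m i := by
    rw [hs, Multiset.card_sum]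
    simp
  have hall : ∀ a ∈ s, 0 < a := by
    intro a ha
    rw [hs, Multiset.mem_sum] at ha
    obtain ⟨i, _, hi⟩ := ha
    have := Multiset.mem_of_mem_nsmul hi
    rw [Multiset.mem_singleton] at this
    rw [this]
    exact hpos i
  have h1 : Multiset.countP (fun x => 0 < x) s = Multiset.card s :=
    Multiset.countP_eq_card.mpr hall
  have h2 := Multiset.countP_le_of_le (fun x : ℝ => 0 < x) hle
  have h3 := roots_countP_pos_le_signVariations P
  have hc : 1 ≤ P.support.card := by
    rw [Nat.one_le_iff_ne_zero, Ne, card_support_eq_zero]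
    exact hP
  have h4 := signVariations_le_card_support (P.support.card - 1) P (by omega)
  omega

/-- The same for complex polynomials and positive real nodes. -/
lemma complex_fewnomial {r : ℕ} (g : ℂ[X]) (hg : g ≠ 0) (t : Fin r → ℝ)
    (ht : Function.Injective t) (hpos : ∀ i, 0 < t i) (m : Fin r → ℕ)
    (hdvd : ∀ i, (X - C (t i : ℂ)) ^ (m i) ∣ g) :
    ∑ i, m i + 1 ≤ g.support.card := by
  classical
  set gb : ℂ[X] := g.map (starRingEnd ℂ) with hgb
  have hdvdb : ∀ i, (X - C (t i : ℂ)) ^ (m i) ∣ gb := by
    intro i
    have := Polynomial.map_dvd (starRingEnd ℂ) (hdvd i)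
    simpa using this
  -- a general statement for combinations fixed by conjugation
  have key : ∀ h : ℂ[X], (∀ n, h.coeff n ∈ Set.range (algebraMap ℝ ℂ)) →
      (∀ n, g.coeff n = 0 → h.coeff n = 0) → (∀ i, (X - C (t i : ℂ)) ^ (m i) ∣ h) → h ≠ 0 →
      ∑ i, m i + 1 ≤ g.support.card := by
    intro h hreal hsupp hd h0
    obtain ⟨P, hP⟩ := (lifts_iff_coeff_lifts h).mpr hreal
    have hP' : P.map (algebraMap ℝ ℂ) = h := hP
    have hP0 : P ≠ 0 := by
      rintro rfl
      apply h0
      rw [← hP']
      simp
    have hPd : ∀ i, (X - C (t i)) ^ (m i) ∣ P := by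
      intro i
      rw [← map_dvd_map' (algebraMap ℝ ℂ), hP']
      simpa using hd i
    have h1 := real_fewnomial P hP0 t ht hpos m hPd
    have h2 : P.support ⊆ g.support := by
      intro n hn
      rw [mem_support_iff] at hn ⊢
      intro hgn
      apply hn
      have := hsupp n hgn
      rw [← hP', coeff_map] at this
      exact (map_eq_zero (algebraMap ℝ ℂ)).mp this
    exact h1.trans (Finset.card_le_card h2)
  by_cases hsum : g + gb = 0
  · -- then use `I * (g - gb)`
    apply key (C Complex.I * (g - gb))
    · intro n
      refine ⟨-2 * (g.coeff n).im, ?_⟩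
      rw [coeff_C_mul, coeff_sub, hgb, coeff_map]
      apply Complex.ext <;> simp <;> ring
    · intro n hn
      rw [coeff_C_mul, coeff_sub, hgb, coeff_map, hn]
      simp
    · intro i
      exact Dvd.dvd.mul_left (dvd_sub (hdvd i) (hdvdb i)) _
    · intro h
      have h1 : g - gb = 0 := by
        rcases mul_eq_zero.mp h with h | h
        · simp at h
        · exact h
      apply hg
      have h2 : (2 : ℂ[X]) * g = 0 := by
        have : (2 : ℂ[X]) * g = (g + gb) + (g - gb) := by ring
        rw [this, hsum, h1, add_zero]
      rcases mul_eq_zero.mp h2 with h | h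
      · exact absurd h two_ne_zero
      · exact h
  · apply key (g + gb)
    · intro n
      refine ⟨2 * (g.coeff n).re, ?_⟩
      rw [coeff_add, hgb, coeff_map]
      apply Complex.ext <;> simp <;> ring
    · intro n hn
      rw [coeff_add, hgb, coeff_map, hn]
      simp
    · intro i
      exact dvd_add (hdvd i) (hdvdb i)
    · exact hsum

end Vale.Agent.P279
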