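import Vale.Agent.P279.Closed
import Vale.Agent.P279.Fewnomial

namespace Vale.Agent.P279

open MvPolynomial

lemma derivative_aeval (γ : Fin 3 → Polynomial ℂ) (F : MvPolynomial (Fin 3) ℂ) :
    Polynomial.derivative (aeval γ F) =
      ∑ i, aeval γ (pderiv i F) * Polynomial.derivative (γ i) := by
  classical
  induction F using MvPolynomial.induction_on with
  | C a => simp
  | add p q hp hq => simp [hp, hq, add_mul, Finset.sum_add_distrib]
  | mul_X p j hp =>
    simp only [map_mul, aeval_X, Polynomial.derivative_mul, hp, pderiv_mul, map_add, pderiv_X,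
      add_mul, Finset.sum_add_distrib]
    congr 1
    · rw [Finset.sum_mul]
      refine Finset.sum_congr rfl fun i _ => ?_
      ring
    · rw [Finset.sum_eq_single j]
      · simp
      · intro i _ hij
        simp [Pi.single_apply, Ne.symm hij]
      · intro h
        exact absurd (Finset.mem_univ j) h

lemma eval_aeval (γ : Fin 3 → Polynomial ℂ) (F : MvPolynomial (Fin 3) ℂ) (t : ℂ) :
    Polynomial.eval t (aeval γ F) = eval (fun i => (γ i).eval t) F := by
  induction F using MvPolynomial.induction_on with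
  | C a => simp
  | add p q hp hq => simp [hp, hq]
  | mul_X p j hp => simp [hp]

lemma pow_succ_dvd_of_derivative (h : Polynomial ℂ) (t : ℂ) (m : ℕ) (h0 : h.eval t = 0)
    (hd : (Polynomial.X - Polynomial.C t) ^ m ∣ Polynomial.derivative h) :
    (Polynomial.X - Polynomial.C t) ^ (m + 1) ∣ h := by
  by_cases hh : h = 0
  · rw [hh]; exact dvd_zero _
  have hroot : h.IsRoot t := h0
  have hd0 : Polynomial.derivative h ≠ 0 := by
    intro hz
    have hc := Polynomial.natDegree_eq_zero_of_derivative_eq_zero hz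
    rw [Polynomial.eq_C_of_natDegree_eq_zero hc] at h0 hh
    simp only [Polynomial.eval_C] at h0
    rw [h0] at hh
    simp at hh
  have h1 := Polynomial.derivative_rootMultiplicity_of_root hroot
  have h2 := (Polynomial.le_rootMultiplicity_iff hd0).mpr hd
  rw [← Polynomial.le_rootMultiplicity_iff hh]
  have h3 : 0 < h.rootMultiplicity t := (Polynomial.rootMultiplicity_pos hh).mpr hroot
  omega

lemma pow_dvd_aeval_of_multGE (γ : Fin 3 → Polynomial ℂ) (t : ℂ) (m : ℕ) :
    ∀ F : MvPolynomial (Fin 3) ℂ, MultGE F (fun i => (γ i).eval t) m →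
      (Polynomial.X - Polynomial.C t) ^ m ∣ aeval γ F := by
  induction m with
  | zero => intro F _; simp
  | succ m ih =>
    intro F hF
    rw [multGE_succ_iff] at hF
    apply pow_succ_dvd_of_derivative
    · rw [eval_aeval]; exact hF.1
    · rw [derivative_aeval]
      apply Finset.dvd_sum
      intro i _
      exact Dvd.dvd.mul_right (ih _ (hF.2 i)) _

/-- The monomial curve `s ↦ (s^(d+1), s, 1)`. -/
noncomputable def monoCurve (d : ℕ) : Fin 3 → Polynomial ℂ :=
  ![Polynomial.X ^ (d + 1), Polynomial.X, 1]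

/-- The exponent of `s` obtained from a monomial. -/
def expoMap (d : ℕ) (b : Fin 3 →₀ ℕ) : ℕ := (d + 1) * b 0 + b 1

lemma expoMap_injOn (d : ℕ) (b b' : Expo d) (h : expoMap d b.1 = expoMap d b'.1) : b = b' := by
  have hb := mem_expo.mp b.2
  have hb' := mem_expo.mp b'.2
  rw [Finsupp.degree_eq_sum, Fin.sum_univ_three] at hb hb'
  unfold expoMap at h
  have h1 : b.1 1 < d + 1 := by omega
  have h1' : b'.1 1 < d + 1 := by omega
  have h0 : b.1 0 = b'.1 0 := by
    have e1 : ((d + 1) * b.1 0 + b.1 1) / (d + 1) = b.1 0 := by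
      rw [Nat.mul_add_div (by omega), Nat.div_eq_of_lt h1, add_zero]
    have e2 : ((d + 1) * b'.1 0 + b'.1 1) / (d + 1) = b'.1 0 := by
      rw [Nat.mul_add_div (by omega), Nat.div_eq_of_lt h1', add_zero]
    rw [← e1, ← e2, h]
  rw [h0] at h
  have h11 : b.1 1 = b'.1 1 := by omega
  apply Subtype.ext
  ext i
  fin_cases i
  · exact h0
  · exact h11
  · show b.1 2 = b'.1 2
    omega

lemma aeval_monoCurve_monomial (d : ℕ) (b : Fin 3 →₀ ℕ) :
    aeval (monoCurve d) (monomial b (1 : ℂ)) = Polynomial.X ^ (expoMap d b) := by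
  rw [aeval_monomial, Finsupp.prod_fintype _ _ (by simp), Fin.prod_univ_three]
  simp only [monoCurve, expoMap, Matrix.cons_val_zero, Matrix.cons_val_one, Matrix.cons_val_two,
    Matrix.head_cons, Matrix.tail_cons, map_one, one_mul, one_pow, mul_one]
  rw [← pow_mul, ← pow_add]

lemma aeval_monoCurve_eq {d : ℕ} {F : MvPolynomial (Fin 3) ℂ} (hF : F.IsHomogeneous d) :
    aeval (monoCurve d) F =
      ∑ b : Expo d, Polynomial.C (coeff b.1 F) * Polynomial.X ^ (expoMap d b.1) := by
  conv_lhs => rw [← polyOf_coeff hF, polyOf, map_sum]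
  refine Finset.sum_congr rfl fun b _ => ?_
  rw [map_mul, aeval_monoCurve_monomial, aeval_C]
  rfl

lemma coeff_aeval_monoCurve {d : ℕ} {F : MvPolynomial (Fin 3) ℂ} (hF : F.IsHomogeneous d)
    (b : Expo d) : (aeval (monoCurve d) F).coeff (expoMap d b.1) = coeff b.1 F := by
  classical
  rw [aeval_monoCurve_eq hF, Polynomial.finset_sum_coeff, Finset.sum_eq_single b]
  · simp
  · intro b' _ hb'
    rw [Polynomial.coeff_C_mul, Polynomial.coeff_X_pow, if_neg, mul_zero]
    intro h
    exact hb' (expoMap_injOn d b' b h.symm)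
  · intro h
    exact absurd (Finset.mem_univ b) h

lemma aeval_monoCurve_ne_zero {d : ℕ} {F : MvPolynomial (Fin 3) ℂ} (hF : F.IsHomogeneous d)
    (h0 : F ≠ 0) : aeval (monoCurve d) F ≠ 0 := by
  intro h
  apply h0
  rw [← polyOf_coeff hF]
  have : (fun b : Expo d => coeff b.1 F) = 0 := by
    funext b
    rw [← coeff_aeval_monoCurve hF b, h]
    simp
  rw [this]
  simp [polyOf]

lemma card_support_aeval_monoCurve {d : ℕ} {F : MvPolynomial (Fin 3) ℂ}
    (hF : F.IsHomogeneous d) : (aeval (monoCurve d) F).support.card ≤ (d + 2).choose 2 := by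
  classical
  have hsub : (aeval (monoCurve d) F).support ⊆ (Expo d).image (expoMap d) := by
    intro n hn
    rw [Polynomial.mem_support_iff, aeval_monoCurve_eq hF, Polynomial.finset_sum_coeff] at hn
    obtain ⟨b, _, hb⟩ := Finset.exists_ne_zero_of_sum_ne_zero hn
    rw [Polynomial.coeff_C_mul, Polynomial.coeff_X_pow] at hb
    rw [Finset.mem_image]
    refine ⟨b.1, b.2, ?_⟩
    by_contra hne
    rw [if_neg (fun h => hne h.symm), mul_zero] at hb
    exact hb rfl
  calc (aeval (monoCurve d) F).support.card ≤ ((Expo d).image (expoMap d)).card :=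
        Finset.card_le_card hsub
    _ ≤ (Expo d).card := Finset.card_image_le
    _ = (d + 2).choose 2 := by
        rw [Finset.card_finsuppAntidiag_nat_eq_choose]
        simp only [Finset.card_univ, Fintype.card_fin]
        have : 3 + d - 1 = d + 2 := by omega
        rw [this, ← Nat.choose_symm_of_eq_add (show d + 2 = d + 2 from rfl)]

end Vale.Agent.P279
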