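import Mathlib

namespace Vale.Agent.P279

open MvPolynomial

/-- The complex projective plane. -/
abbrev Pt : Type := Projectivization ℂ (Fin 3 → ℂ)

/-- Iterated partial derivative of `F` along a list of variables. -/
noncomputable def iterPderiv (l : List (Fin 3)) (F : MvPolynomial (Fin 3) ℂ) :
    MvPolynomial (Fin 3) ℂ :=
  l.foldr (fun i G => pderiv i G) F

/-- `MultGE F v m`: every iterated derivative of `F` of order `< m` vanishes at `v`,
i.e. the order of vanishing of `F` at `v` is at least `m`. -/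
def MultGE (F : MvPolynomial (Fin 3) ℂ) (v : Fin 3 → ℂ) (m : ℕ) : Prop :=
  ∀ l : List (Fin 3), l.length < m → eval v (iterPderiv l F) = 0

/-- `v` is a tuple of homogeneous coordinate vectors of the tuple of points `p`. -/
def IsRep {r : ℕ} (v : Fin r → Fin 3 → ℂ) (p : Fin r → Pt) : Prop :=
  ∀ i, ∃ h : v i ≠ 0, Projectivization.mk ℂ (v i) h = p i

/-- Zariski closed subsets of `(P^2)^r`: the tuples all of whose homogeneous coordinate
vectors are common zeros of some set of polynomials in the `3 r` coordinates. -/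
def IsZariskiClosed {r : ℕ} (Z : Set (Fin r → Pt)) : Prop :=
  ∃ S : Set (MvPolynomial (Fin r × Fin 3) ℂ),
    ∀ p, p ∈ Z ↔ ∀ v, IsRep v p → ∀ f ∈ S, eval (fun x => v x.1 x.2) f = 0

/-- `P` holds for very general tuples of `r` distinct points: it holds for all tuples of distinct
points outside a countable union of Zariski closed sets, none of which contains all tuples of
distinct points. -/
def VeryGeneral (r : ℕ) (P : (Fin r → Pt) → Prop) : Prop :=
  ∃ Zs : Set (Set (Fin r → Pt)), Zs.Countable ∧
    (∀ Z ∈ Zs, IsZariskiClosed Z ∧ ∃ p, Function.Injective p ∧ p ∉ Z) ∧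
    ∀ p, Function.Injective p → (∀ Z ∈ Zs, p ∉ Z) → P p

/-- `F` defines a nonzero effective plane curve of degree `d` with multiplicity at least `m i`
at the point `p i`, for every `i`. -/
def IsCurveThrough {r : ℕ} (p : Fin r → Pt) (d : ℕ) (m : Fin r → ℕ)
    (F : MvPolynomial (Fin 3) ℂ) : Prop :=
  F ≠ 0 ∧ F.IsHomogeneous d ∧ ∀ i, MultGE F (p i).rep (m i)

/-- Nagata's statement for `r` points. -/
def NagataFor (r : ℕ) : Prop :=
  VeryGeneral r fun p => ∀ (d : ℕ) (m : Fin r → ℕ) (F : MvPolynomial (Fin 3) ℂ),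
    1 ≤ d → IsCurveThrough p d m F → (∑ i, (m i : ℝ)) < d * Real.sqrt r

end Vale.Agent.P279
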