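import Vale.Agent.P279.Closed

namespace Vale.Agent.P279

open MvPolynomial

lemma dense_eval_ne_zero {σ : Type*} [Fintype σ] (f : MvPolynomial σ ℂ) (hf : f ≠ 0) :
    Dense {v : σ → ℂ | eval v f ≠ 0} := by
  rw [dense_iff_inter_open]
  intro U hU ⟨x, hx⟩
  obtain ⟨ε, hε, hball⟩ := Metric.isOpen_iff.mp hU x hx
  by_contra hne
  apply hf
  apply funext_set (fun i => Metric.ball (x i) ε)
  · intro i
    exact infinite_of_mem_nhds (x i) (Metric.ball_mem_nhds _ hε)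
  · intro y hy
    rw [map_zero]
    by_contra hy0
    apply hne
    refine ⟨y, hball ?_, hy0⟩
    rw [ball_pi _ hε]
    exact hy

lemma exists_eval_ne_zero_of_countable {σ : Type*} [Fintype σ] (S : Set (MvPolynomial σ ℂ))
    (hS : S.Countable) (h0 : ∀ f ∈ S, f ≠ 0) : ∃ v : σ → ℂ, ∀ f ∈ S, eval v f ≠ 0 := by
  have hd : Dense (⋂₀ ((fun f : MvPolynomial σ ℂ => {v : σ → ℂ | eval v f ≠ 0}) '' S)) := by
    apply dense_sInter_of_isOpen
    · rintro _ ⟨f, _, rfl⟩
      exact isOpen_ne_fun (continuous_eval f) continuous_const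
    · exact hS.image _
    · rintro _ ⟨f, hf, rfl⟩
      exact dense_eval_ne_zero f (h0 f hf)
  obtain ⟨v, hv⟩ := hd.nonempty
  refine ⟨v, fun f hf => ?_⟩
  exact hv _ ⟨f, hf, rfl⟩

lemma IsZariskiClosed.exists_poly {r : ℕ} {Z : Set (Fin r → Pt)} (hZ : IsZariskiClosed Z)
    {p : Fin r → Pt} (hp : p ∉ Z) :
    ∃ f : MvPolynomial (Fin r × Fin 3) ℂ, f ≠ 0 ∧
      ∀ (w : Fin r → Fin 3 → ℂ) (q : Fin r → Pt), IsRep w q →
        eval (fun x => w x.1 x.2) f ≠ 0 → q ∉ Z := by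
  obtain ⟨S, hS⟩ := hZ
  rw [hS] at hp
  push_neg at hp
  obtain ⟨v, _, f, hf, hfv⟩ := hp
  refine ⟨f, ?_, ?_⟩
  · rintro rfl
    simp at hfv
  · intro w q hw hne hq
    exact hne ((hS q).mp hq w hw f hf)

/-- The `2 × 2` minor separating the points `i` and `j`. -/
noncomputable def sepPoly {r : ℕ} (i j : Fin r) : MvPolynomial (Fin r × Fin 3) ℂ :=
  X (i, 0) * X (j, 1) - X (i, 1) * X (j, 0)

lemma sepPoly_ne_zero {r : ℕ} {i j : Fin r} (hij : i ≠ j) : sepPoly i j ≠ 0 := by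
  classical
  intro h
  have h1 := congrArg
    (eval (fun x : Fin r × Fin 3 => if x = (i, 0) ∨ x = (j, 1) then (1 : ℂ) else 0)) h
  simp [sepPoly, hij, Ne.symm hij] at h1

/-- A very general property holds at some tuple of distinct points with all homogeneous
coordinates nonzero. -/
theorem VeryGeneral.exists_torus {r : ℕ} {P : (Fin r → Pt) → Prop} (h : VeryGeneral r P) :
    ∃ (w : Fin r → Fin 3 → ℂ) (p : Fin r → Pt), (∀ i j, w i j ≠ 0) ∧ IsRep w p ∧
      Function.Injective p ∧ P p := by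
  classical
  obtain ⟨Zs, hcount, hZs, hP⟩ := h
  have hex : ∀ Z ∈ Zs, ∃ f : MvPolynomial (Fin r × Fin 3) ℂ, f ≠ 0 ∧
      ∀ (w : Fin r → Fin 3 → ℂ) (q : Fin r → Pt), IsRep w q →
        eval (fun x => w x.1 x.2) f ≠ 0 → q ∉ Z := by
    intro Z hZ
    obtain ⟨hcl, p, _, hp⟩ := hZs Z hZ
    exact hcl.exists_poly hp
  choose! f hf0 hf using hex
  let S : Set (MvPolynomial (Fin r × Fin 3) ℂ) :=
    (f '' Zs) ∪ (Set.range fun x : Fin r × Fin 3 => (X x : MvPolynomial (Fin r × Fin 3) ℂ)) ∪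
      ((fun x : Fin r × Fin r => sepPoly x.1 x.2) '' {x | x.1 ≠ x.2})
  have hS : S.Countable :=
    ((hcount.image f).union (Set.countable_range _)).union ((Set.to_countable _).image _)
  have hS0 : ∀ g ∈ S, g ≠ 0 := by
    rintro g ((⟨Z, hZ, rfl⟩ | ⟨x, rfl⟩) | ⟨x, hx, rfl⟩)
    · exact hf0 Z hZ
    · exact X_ne_zero x
    · exact sepPoly_ne_zero hx
  obtain ⟨v, hv⟩ := exists_eval_ne_zero_of_countable S hS hS0
  let w : Fin r → Fin 3 → ℂ := fun i j => v (i, j)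
  have hw : ∀ i j, w i j ≠ 0 := by
    intro i j
    have := hv (X (i, j)) (Or.inl (Or.inr ⟨(i, j), rfl⟩))
    simpa using this
  have hw0 : ∀ i, w i ≠ 0 := fun i h => hw i 0 (congrFun h 0)
  let p : Fin r → Pt := fun i => Projectivization.mk ℂ (w i) (hw0 i)
  have hrep : IsRep w p := fun i => ⟨hw0 i, rfl⟩
  have hinj : Function.Injective p := by
    intro i j hij
    by_contra hne
    have h1 := hv (sepPoly i j) (Or.inr ⟨(i, j), hne, rfl⟩)
    apply h1
    obtain ⟨a, ha⟩ := (Projectivization.mk_eq_mk_iff ℂ _ _ (hw0 i) (hw0 j)).mp hij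
    have e0 : w i 0 = (a : ℂ) * w j 0 := by rw [← ha]; rfl
    have e1 : w i 1 = (a : ℂ) * w j 1 := by rw [← ha]; rfl
    simp only [sepPoly, map_sub, map_mul, eval_X]
    change w i 0 * w j 1 - w i 1 * w j 0 = 0
    rw [e0, e1]
    ring
  refine ⟨w, p, hw, hrep, hinj, hP p hinj fun Z hZ => ?_⟩
  exact hf Z hZ w p hrep (hv _ (Or.inl (Or.inl ⟨Z, hZ, rfl⟩)))

/-- Semicontinuity principle: to exclude, at very general tuples, all curves whose numerical type
is `Bad`, it suffices to exhibit for every bad type one tuple of distinct points without such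
a curve. -/
theorem veryGeneral_of_forall_exists {r : ℕ} (Bad : ℕ → (Fin r → ℕ) → Prop)
    (h : ∀ d m, Bad d m → ∃ p : Fin r → Pt, Function.Injective p ∧ p ∉ curveLocus d m) :
    VeryGeneral r fun p => ∀ d m F, IsCurveThrough p d m F → ¬ Bad d m := by
  refine ⟨{Z | ∃ d m, Bad d m ∧ Z = curveLocus d m}, ?_, ?_, ?_⟩
  · have hsub : {Z | ∃ d m, Bad d m ∧ Z = curveLocus d m} ⊆
        Set.range (fun x : ℕ × (Fin r → ℕ) => curveLocus x.1 x.2) := by
      rintro Z ⟨d, m, _, rfl⟩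
      exact ⟨(d, m), rfl⟩
    exact (Set.countable_range _).mono hsub
  · rintro Z ⟨d, m, hb, rfl⟩
    exact ⟨isZariskiClosed_curveLocus d m, h d m hb⟩
  · intro p _ hp d m F hF hb
    exact hp _ ⟨d, m, hb, rfl⟩ ⟨F, hF⟩

end Vale.Agent.P279
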