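import Vale.Agent.P279.Generic

namespace Vale.Agent.P279

open MvPolynomial

/-- Diagonal substitution `X i ↦ c i * X i`. -/
noncomputable def dil (c : Fin 3 → ℂ) : MvPolynomial (Fin 3) ℂ →ₐ[ℂ] MvPolynomial (Fin 3) ℂ :=
  aeval (fun i => C (c i) * X i)

lemma dil_X (c : Fin 3 → ℂ) (i : Fin 3) : dil c (X i) = C (c i) * X i := by
  simp [dil]

lemma dil_C (c : Fin 3 → ℂ) (a : ℂ) : dil c (C a) = C a := by
  simp [dil]

lemma eval_dil (c v : Fin 3 → ℂ) (F : MvPolynomial (Fin 3) ℂ) :
    eval v (dil c F) = eval (fun i => c i * v i) F := by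
  induction F using MvPolynomial.induction_on with
  | C a => simp [dil_C]
  | add p q hp hq => simp [hp, hq]
  | mul_X p j hp => simp [hp, dil_X]

lemma pderiv_dil (c : Fin 3 → ℂ) (i : Fin 3) (F : MvPolynomial (Fin 3) ℂ) :
    pderiv i (dil c F) = C (c i) * dil c (pderiv i F) := by
  classical
  induction F using MvPolynomial.induction_on with
  | C a => simp [dil_C]
  | add p q hp hq => simp [hp, hq, mul_add]
  | mul_X p j hp =>
    simp only [map_mul, dil_X, pderiv_mul, hp, pderiv_C, pderiv_X, map_add, zero_mul, zero_add]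
    by_cases hij : i = j
    · subst hij
      simp only [Pi.single_eq_same, map_one]
      ring
    · rw [Pi.single_eq_of_ne (Ne.symm hij)]
      simp only [map_zero, mul_zero, add_zero]
      ring

lemma dil_monomial (c : Fin 3 → ℂ) (a : Fin 3 →₀ ℕ) (x : ℂ) :
    dil c (monomial a x) = monomial a ((∏ i, c i ^ a i) * x) := by
  rw [dil, aeval_monomial, Finsupp.prod_fintype _ _ (by simp)]
  simp only [mul_pow, Finset.prod_mul_distrib]
  rw [← map_pow_prod_aux c a, monomial_eq, Finsupp.prod_fintype _ _ (by simp)]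
  simp only [algebraMap_eq, map_mul]
  ring
where
  map_pow_prod_aux (c : Fin 3 → ℂ) (a : Fin 3 →₀ ℕ) :
      (C (∏ i, c i ^ a i) : MvPolynomial (Fin 3) ℂ) = ∏ i, C (c i) ^ a i := by
    simp [map_prod]

lemma coeff_dil (c : Fin 3 → ℂ) (a : Fin 3 →₀ ℕ) (F : MvPolynomial (Fin 3) ℂ) :
    coeff a (dil c F) = (∏ i, c i ^ a i) * coeff a F := by
  classical
  induction F using MvPolynomial.induction_on' with
  | monomial b x =>
    rw [dil_monomial, coeff_monomial, coeff_monomial]
    split_ifs with h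
    · rw [h]
    · simp
  | add p q hp hq => simp [hp, hq, mul_add]

lemma dil_ne_zero {c : Fin 3 → ℂ} (hc : ∀ i, c i ≠ 0) {F : MvPolynomial (Fin 3) ℂ} (hF : F ≠ 0) :
    dil c F ≠ 0 := by
  obtain ⟨a, ha⟩ := ne_zero_iff.mp hF
  rw [ne_zero_iff]
  refine ⟨a, ?_⟩
  rw [coeff_dil]
  exact mul_ne_zero (Finset.prod_ne_zero_iff.mpr fun i _ => pow_ne_zero _ (hc i)) ha

lemma dil_isHomogeneous (c : Fin 3 → ℂ) {F : MvPolynomial (Fin 3) ℂ} {d : ℕ}
    (hF : F.IsHomogeneous d) : (dil c F).IsHomogeneous d := by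
  have := hF.aeval (fun i => C (c i) * X i) (n := 1) (fun i => isHomogeneous_C_mul_X _ _)
  simpa [dil] using this

lemma dil_dil (c c' : Fin 3 → ℂ) (F : MvPolynomial (Fin 3) ℂ) :
    dil c (dil c' F) = dil (fun i => c i * c' i) F := by
  induction F using MvPolynomial.induction_on with
  | C a => simp [dil_C]
  | add p q hp hq => simp [hp, hq]
  | mul_X p j hp =>
    simp only [map_mul, hp, dil_X, dil_C]
    ring

lemma MultGE.dil {c v : Fin 3 → ℂ} {m : ℕ} {F : MvPolynomial (Fin 3) ℂ}
    (h : MultGE F (fun i => c i * v i) m) : MultGE (dil c F) v m := by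
  induction m generalizing F with
  | zero => exact multGE_zero
  | succ m ih =>
    rw [multGE_succ_iff] at h ⊢
    refine ⟨by rw [eval_dil]; exact h.1, fun i => ?_⟩
    rw [pderiv_dil]
    have := (multGE_zero (F := C (c i)) (v := v)).mul (ih (h.2 i))
    simpa using this

lemma pderiv_expand (k : ℕ) (i : Fin 3) (N : MvPolynomial (Fin 3) ℂ) :
    pderiv i (expand k N) = C (k : ℂ) * X i ^ (k - 1) * expand k (pderiv i N) := by
  classical
  induction N using MvPolynomial.induction_on with
  | C a => simp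
  | add p q hp hq => simp [hp, hq, mul_add]
  | mul_X p j hp =>
    simp only [map_mul, expand_X, pderiv_mul, hp, pderiv_pow, pderiv_X, map_add]
    by_cases hij : i = j
    · subst hij
      simp only [Pi.single_eq_same, map_one, mul_one]
      simp only [map_natCast]
      ring
    · rw [Pi.single_eq_of_ne (Ne.symm hij)]
      simp only [map_zero, mul_zero, add_zero]
      ring

lemma MultGE.of_expand {k : ℕ} (hk : k ≠ 0) {u : Fin 3 → ℂ} (hu : ∀ i, u i ≠ 0) {m : ℕ}
    {N : MvPolynomial (Fin 3) ℂ} (h : MultGE (expand k N) u m) : MultGE N (u ^ k) m := by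
  induction m generalizing N with
  | zero => exact multGE_zero
  | succ m ih =>
    rw [multGE_succ_iff] at h ⊢
    refine ⟨by rw [← eval_expand]; exact h.1, fun i => ?_⟩
    apply ih
    have h1 := h.2 i
    rw [pderiv_expand] at h1
    refine MultGE.of_mul_left ?_ h1
    simp only [map_mul, eval_C, map_pow, eval_X]
    exact mul_ne_zero (Nat.cast_ne_zero.mpr hk) (pow_ne_zero _ (hu i))

/-- A polynomial all of whose exponents are divisible by `k` lies in the range of `expand k`. -/
lemma exists_expand_eq {k : ℕ} (hk : k ≠ 0) (G : MvPolynomial (Fin 3) ℂ)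
    (h : ∀ a, coeff a G ≠ 0 → ∀ i, k ∣ a i) : ∃ N, expand k N = G := by
  classical
  let dv : (Fin 3 →₀ ℕ) → (Fin 3 →₀ ℕ) := fun a => a.mapRange (· / k) (Nat.zero_div k)
  have hdv : ∀ a : Fin 3 →₀ ℕ, dv (k • a) = a := by
    intro a
    ext i
    simp [dv, Nat.mul_div_cancel_left _ (Nat.pos_of_ne_zero hk)]
  have hdv' : ∀ a : Fin 3 →₀ ℕ, (∀ i, k ∣ a i) → k • dv a = a := by
    intro a ha
    ext i
    simp [dv, Nat.mul_div_cancel' (ha i)]
  refine ⟨∑ a ∈ G.support, monomial (dv a) (coeff a G), ?_⟩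
  ext a
  by_cases ha : ∀ i, k ∣ a i
  · rw [← hdv' a ha, coeff_expand_smul k hk, coeff_sum]
    by_cases hs : k • dv a ∈ G.support
    · rw [Finset.sum_eq_single (k • dv a)]
      · rw [coeff_monomial, if_pos (hdv _)]
      · intro b hb hne
        rw [coeff_monomial, if_neg]
        intro hbe
        apply hne
        rw [← hbe, hdv' b (h b (mem_support_iff.mp hb))]
      · intro hn
        exact absurd hs hn
    · rw [notMem_support_iff.mp hs]
      apply Finset.sum_eq_zero
      intro b hb
      rw [coeff_monomial, if_neg]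
      intro hbe
      apply hs
      rw [← hbe, hdv' b (h b (mem_support_iff.mp hb))]
      exact hb
  · push Not at ha
    obtain ⟨i, hi⟩ := ha
    rw [coeff_expand_of_not_dvd _ hi]
    by_contra hne
    exact hi (h a (Ne.symm hne) i)

end Vale.Agent.P279
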