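import Vale.Agent.P279.Kummer

namespace Vale.Agent.P279

open MvPolynomial

noncomputable instance instFintypeMu (k : ℕ) [NeZero k] : Fintype (rootsOfUnity k ℂ) :=
  Fintype.ofFinite _

/-- The diagonal matrix attached to a pair of roots of unity. -/
def cvec {k : ℕ} (x : rootsOfUnity k ℂ × rootsOfUnity k ℂ) : Fin 3 → ℂ :=
  ![((x.1 : ℂˣ) : ℂ), ((x.2 : ℂˣ) : ℂ), 1]

lemma cvec_ne_zero {k : ℕ} (x : rootsOfUnity k ℂ × rootsOfUnity k ℂ) (i : Fin 3) :
    cvec x i ≠ 0 := by
  fin_cases i <;> simp [cvec]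

lemma cvec_mul {k : ℕ} (x y : rootsOfUnity k ℂ × rootsOfUnity k ℂ) :
    (fun i => cvec x i * cvec y i) = cvec (x * y) := by
  funext i
  fin_cases i <;> simp [cvec]

lemma cvec_pow {k : ℕ} (x : rootsOfUnity k ℂ × rootsOfUnity k ℂ) (i : Fin 3) :
    cvec x i ^ k = 1 := by
  have h1 : ((x.1 : ℂˣ) : ℂ) ^ k = 1 := by
    have := (mem_rootsOfUnity k _).mp x.1.2
    rw [← Units.val_pow_eq_pow_val, this, Units.val_one]
  have h2 : ((x.2 : ℂˣ) : ℂ) ^ k = 1 := by
    have := (mem_rootsOfUnity k _).mp x.2.2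
    rw [← Units.val_pow_eq_pow_val, this, Units.val_one]
  fin_cases i <;> simp [cvec, h1, h2]

/-- The product of all translates of `F` under the group of pairs of roots of unity. -/
noncomputable def normPoly (k : ℕ) [NeZero k] (F : MvPolynomial (Fin 3) ℂ) :
    MvPolynomial (Fin 3) ℂ :=
  ∏ x : rootsOfUnity k ℂ × rootsOfUnity k ℂ, dil (cvec x) F

lemma dil_normPoly (k : ℕ) [NeZero k] (F : MvPolynomial (Fin 3) ℂ)
    (y : rootsOfUnity k ℂ × rootsOfUnity k ℂ) : dil (cvec y) (normPoly k F) = normPoly k F := by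
  rw [normPoly, map_prod]
  simp only [dil_dil, cvec_mul]
  exact Equiv.prod_comp (Equiv.mulLeft y) (fun x => dil (cvec x) F)

lemma normPoly_ne_zero (k : ℕ) [NeZero k] {F : MvPolynomial (Fin 3) ℂ} (hF : F ≠ 0) :
    normPoly k F ≠ 0 :=
  Finset.prod_ne_zero_iff.mpr fun x _ => dil_ne_zero (cvec_ne_zero x) hF

lemma card_mu_prod (k : ℕ) [NeZero k] :
    Fintype.card (rootsOfUnity k ℂ × rootsOfUnity k ℂ) = k * k := by
  rw [Fintype.card_prod, ← Nat.card_eq_fintype_card, Complex.card_rootsOfUnity]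

lemma normPoly_isHomogeneous (k : ℕ) [NeZero k] {F : MvPolynomial (Fin 3) ℂ} {d : ℕ}
    (hF : F.IsHomogeneous d) : (normPoly k F).IsHomogeneous (k * (k * d)) := by
  have := IsHomogeneous.prod Finset.univ
    (fun x : rootsOfUnity k ℂ × rootsOfUnity k ℂ => dil (cvec x) F) (fun _ => d)
    (fun x _ => dil_isHomogeneous _ hF)
  simp only [Finset.sum_const, Finset.card_univ, card_mu_prod, smul_eq_mul] at this
  rw [← mul_assoc]
  exact this

lemma dvd_of_coeff_normPoly_ne_zero (k : ℕ) [NeZero k] {F : MvPolynomial (Fin 3) ℂ} {d : ℕ}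
    (hF : F.IsHomogeneous d) (a : Fin 3 →₀ ℕ) (ha : coeff a (normPoly k F) ≠ 0) (i : Fin 3) :
    k ∣ a i := by
  have hk : k ≠ 0 := NeZero.ne k
  have hζ := Complex.isPrimitiveRoot_exp k hk
  set ζ := Complex.exp (2 * Real.pi * Complex.I / k) with hζdef
  let z : rootsOfUnity k ℂ := rootsOfUnity.mkOfPowEq ζ hζ.pow_eq_one
  have hz : ((z : ℂˣ) : ℂ) = ζ := rootsOfUnity.coe_mkOfPowEq _
  have h0 : k ∣ a 0 := by
    have h1 := congrArg (coeff a) (dil_normPoly k F (z, 1))
    rw [coeff_dil, Fin.prod_univ_three] at h1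
    simp only [cvec, Matrix.cons_val_zero, Matrix.cons_val_one, Matrix.cons_val_two,
      Matrix.head_cons, Matrix.tail_cons, hz, OneMemClass.coe_one, Units.val_one, one_pow,
      mul_one] at h1
    have h2 : ζ ^ a 0 = 1 := by
      have : (ζ ^ a 0 - 1) * coeff a (normPoly k F) = 0 := by rw [sub_mul, h1, one_mul, sub_self]
      rcases mul_eq_zero.mp this with h | h
      · exact sub_eq_zero.mp h
      · exact absurd h ha
    exact (hζ.pow_eq_one_iff_dvd _).mp h2
  have h1 : k ∣ a 1 := by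
    have h1 := congrArg (coeff a) (dil_normPoly k F (1, z))
    rw [coeff_dil, Fin.prod_univ_three] at h1
    simp only [cvec, Matrix.cons_val_zero, Matrix.cons_val_one, Matrix.cons_val_two,
      Matrix.head_cons, Matrix.tail_cons, hz, OneMemClass.coe_one, Units.val_one, one_pow,
      mul_one, one_mul] at h1
    have h2 : ζ ^ a 1 = 1 := by
      have : (ζ ^ a 1 - 1) * coeff a (normPoly k F) = 0 := by rw [sub_mul, h1, one_mul, sub_self]
      rcases mul_eq_zero.mp this with h | h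
      · exact sub_eq_zero.mp h
      · exact absurd h ha
    exact (hζ.pow_eq_one_iff_dvd _).mp h2
  have h2 : k ∣ a 2 := by
    have hdeg : a.degree = k * (k * d) := by
      by_contra hne
      exact ha ((normPoly_isHomogeneous k hF).coeff_eq_zero hne)
    rw [Finsupp.degree_eq_sum, Fin.sum_univ_three] at hdeg
    have h3 : k ∣ a 0 + a 1 + a 2 := by rw [hdeg]; exact Dvd.intro _ rfl
    exact (Nat.dvd_add_right (Nat.dvd_add h0 h1)).mp h3
  fin_cases i
  · exact h0
  · exact h1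
  · exact h2

/-- The norm curve: a form `N` of degree `k d` with `N(x^k, y^k, z^k) = ∏ F(ξ x, η y, z)`. -/
lemma exists_norm (k : ℕ) [NeZero k] {F : MvPolynomial (Fin 3) ℂ} {d : ℕ}
    (hF : F.IsHomogeneous d) (hF0 : F ≠ 0) :
    ∃ N : MvPolynomial (Fin 3) ℂ, N ≠ 0 ∧ N.IsHomogeneous (k * d) ∧
      expand k N = normPoly k F := by
  have hk : k ≠ 0 := NeZero.ne k
  obtain ⟨N, hN⟩ := exists_expand_eq hk (normPoly k F)
    (fun a ha i => dvd_of_coeff_normPoly_ne_zero k hF a ha i)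
  refine ⟨N, ?_, ?_, hN⟩
  · rintro rfl
    rw [map_zero] at hN
    exact normPoly_ne_zero k hF0 hN.symm
  · intro a ha
    have h1 : coeff (k • a) (normPoly k F) ≠ 0 := by
      rw [← hN, coeff_expand_smul k hk]
      exact ha
    have h2 : (k • a).degree = k * (k * d) := by
      by_contra hne
      exact h1 ((normPoly_isHomogeneous k hF).coeff_eq_zero hne)
    rw [map_nsmul, smul_eq_mul] at h2
    have h3 : a.degree = k * d := Nat.eq_of_mul_eq_mul_left (Nat.pos_of_ne_zero hk) h2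
    rw [Finsupp.degree_eq_weight_one] at h3
    exact h3

end Vale.Agent.P279
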