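import Vale.Agent.P279.Defs

namespace Vale.Agent.P279

open MvPolynomial

variable {F G H : MvPolynomial (Fin 3) ℂ} {v : Fin 3 → ℂ} {m n : ℕ}

lemma iterPderiv_concat (l : List (Fin 3)) (i : Fin 3) (F : MvPolynomial (Fin 3) ℂ) :
    iterPderiv (l ++ [i]) F = iterPderiv l (pderiv i F) := by
  simp [iterPderiv, List.foldr_append]

lemma multGE_zero : MultGE F v 0 := fun _ hl => absurd hl (Nat.not_lt_zero _)

lemma multGE_succ_iff : MultGE F v (m + 1) ↔ eval v F = 0 ∧ ∀ i, MultGE (pderiv i F) v m := by
  constructor
  · intro h
    refine ⟨h [] (Nat.succ_pos _), fun i l hl => ?_⟩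
    have := h (l ++ [i]) (by simp; omega)
    rwa [iterPderiv_concat] at this
  · rintro ⟨h0, h1⟩ l hl
    rcases List.eq_nil_or_concat l with rfl | ⟨l', i, rfl⟩
    · exact h0
    · rw [List.concat_eq_append, iterPderiv_concat]
      apply h1
      simp at hl
      omega

lemma MultGE.mono (h : MultGE F v m) (hn : n ≤ m) : MultGE F v n :=
  fun l hl => h l (lt_of_lt_of_le hl hn)

lemma MultGE.add (hF : MultGE F v m) (hG : MultGE G v m) : MultGE (F + G) v m := by
  induction m generalizing F G with
  | zero => exact multGE_zero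
  | succ m ih =>
    rw [multGE_succ_iff] at hF hG ⊢
    refine ⟨by simp [hF.1, hG.1], fun i => ?_⟩
    rw [map_add]
    exact ih (hF.2 i) (hG.2 i)

lemma MultGE.neg (hF : MultGE F v m) : MultGE (-F) v m := by
  induction m generalizing F with
  | zero => exact multGE_zero
  | succ m ih =>
    rw [multGE_succ_iff] at hF ⊢
    refine ⟨by simp [hF.1], fun i => ?_⟩
    rw [map_neg]
    exact ih (hF.2 i)

lemma MultGE.sub (hF : MultGE F v m) (hG : MultGE G v m) : MultGE (F - G) v m := by
  rw [sub_eq_add_neg]
  exact hF.add hG.neg

lemma MultGE.mul_aux (N : ℕ) : ∀ (a b : ℕ) (F G : MvPolynomial (Fin 3) ℂ), a + b = N →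
    MultGE F v a → MultGE G v b → MultGE (F * G) v N := by
  induction N with
  | zero => intro a b F G _ _ _; exact multGE_zero
  | succ N ih =>
    intro a b F G hab hF hG
    rw [multGE_succ_iff]
    constructor
    · rcases a with _ | a
      · have hb : b = N + 1 := by omega
        subst hb
        rw [multGE_succ_iff] at hG
        simp [hG.1]
      · rw [multGE_succ_iff] at hF
        simp [hF.1]
    · intro i
      rw [pderiv_mul]
      apply MultGE.add
      · rcases a with _ | a
        · have hb : b = N + 1 := by omega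
          subst hb
          exact ih 0 N _ _ (by omega) multGE_zero (hG.mono (by omega))
        · rw [multGE_succ_iff] at hF
          exact ih a b _ _ (by omega) (hF.2 i) hG
      · rcases b with _ | b
        · have ha : a = N + 1 := by omega
          subst ha
          exact ih N 0 _ _ (by omega) (hF.mono (by omega)) multGE_zero
        · rw [multGE_succ_iff] at hG
          exact ih a b _ _ (by omega) hF (hG.2 i)

lemma MultGE.mul (hF : MultGE F v m) (hG : MultGE G v n) : MultGE (F * G) v (m + n) :=
  MultGE.mul_aux (m + n) m n F G rfl hF hG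

lemma MultGE.prod {ι : Type*} (s : Finset ι) (Fs : ι → MvPolynomial (Fin 3) ℂ) (ms : ι → ℕ)
    (h : ∀ j ∈ s, MultGE (Fs j) v (ms j)) : MultGE (∏ j ∈ s, Fs j) v (∑ j ∈ s, ms j) := by
  classical
  induction s using Finset.induction_on with
  | empty => simpa using multGE_zero
  | insert a s ha ih =>
    rw [Finset.prod_insert ha, Finset.sum_insert ha]
    exact (h a (Finset.mem_insert_self a s)).mul
      (ih fun j hj => h j (Finset.mem_insert_of_mem hj))

lemma MultGE.of_mul_left (hH : eval v H ≠ 0) (h : MultGE (H * G) v m) : MultGE G v m := by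
  induction m generalizing G with
  | zero => exact multGE_zero
  | succ m ih =>
    have hG : MultGE G v m := ih (h.mono (Nat.le_succ m))
    rw [multGE_succ_iff] at h ⊢
    refine ⟨?_, fun i => ?_⟩
    · have := h.1
      rw [map_mul] at this
      exact (mul_eq_zero.mp this).resolve_left hH
    · apply ih
      have h1 := h.2 i
      rw [pderiv_mul] at h1
      have h2 : MultGE (pderiv i H * G) v m := by
        have := (multGE_zero (F := pderiv i H) (v := v)).mul hG
        simpa using this
      have := h1.sub h2
      simpa using this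

lemma eval_smul_of_isHomogeneous {d : ℕ} (hF : F.IsHomogeneous d) (c : ℂ) :
    eval (c • v) F = c ^ d * eval v F := by
  rw [eval_eq', eval_eq', Finset.mul_sum]
  refine Finset.sum_congr rfl fun x hx => ?_
  have hx' : ∑ i, x i = d := by
    have := hF.degree_eq_sum_deg_support hx
    rw [this]
    symm
    apply Finset.sum_subset (Finset.subset_univ _)
    intro i _ hi
    simpa using hi
  simp only [Pi.smul_apply, smul_eq_mul, mul_pow, Finset.prod_mul_distrib]
  rw [Finset.prod_pow_eq_pow_sum, hx']
  ring

lemma MultGE.smul_point {d : ℕ} (hF : F.IsHomogeneous d) (c : ℂ) (h : MultGE F v m) :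
    MultGE F (c • v) m := by
  induction m generalizing F d with
  | zero => exact multGE_zero
  | succ m ih =>
    rw [multGE_succ_iff] at h ⊢
    refine ⟨by rw [eval_smul_of_isHomogeneous hF, h.1, mul_zero], fun i => ?_⟩
    exact ih hF.pderiv (h.2 i)

/-- For homogeneous `F` the condition does not depend on the chosen coordinate vector. -/
lemma multGE_rep_iff {d : ℕ} (hF : F.IsHomogeneous d) (hv : v ≠ 0) :
    MultGE F (Projectivization.mk ℂ v hv).rep m ↔ MultGE F v m := by
  obtain ⟨a, ha⟩ := Projectivization.exists_smul_eq_mk_rep ℂ v hv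
  constructor
  · intro h
    have h2 := h.smul_point hF ((a⁻¹ : ℂˣ) : ℂ)
    rw [← ha] at h2
    have : ((a⁻¹ : ℂˣ) : ℂ) • a • v = v := by
      rw [Units.smul_def, smul_smul]
      simp
    rwa [this] at h2
  · intro h
    rw [← ha]
    exact h.smul_point hF (a : ℂ)

end Vale.Agent.P279
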