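import Vale.Agent.P279.Curve
import Vale.Agent.P279.Generic

namespace Vale.Agent.P279

open MvPolynomial

/-- Coordinates of the `i`-th point on the monomial curve. -/
noncomputable def curvePt (d : ℕ) (r : ℕ) (i : Fin r) : Fin 3 → ℂ :=
  fun j => (monoCurve d j).eval (((i : ℕ) + 1 : ℝ) : ℂ)

lemma curvePt_two (d r : ℕ) (i : Fin r) : curvePt d r i 2 = 1 := by
  simp [curvePt, monoCurve]

lemma curvePt_one (d r : ℕ) (i : Fin r) : curvePt d r i 1 = (((i : ℕ) + 1 : ℝ) : ℂ) := by
  simp [curvePt, monoCurve]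

lemma curvePt_ne_zero (d r : ℕ) (i : Fin r) : curvePt d r i ≠ 0 := by
  intro h
  have := congrFun h 2
  rw [curvePt_two] at this
  simp at this

theorem exists_tuple_no_curve {r : ℕ} (d : ℕ) (m : Fin r → ℕ)
    (h : (d + 2).choose 2 ≤ ∑ i, m i) :
    ∃ p : Fin r → Pt, Function.Injective p ∧ p ∉ curveLocus d m := by
  refine ⟨fun i => Projectivization.mk ℂ (curvePt d r i) (curvePt_ne_zero d r i), ?_, ?_⟩
  · intro i j hij
    obtain ⟨a, ha⟩ := (Projectivization.mk_eq_mk_iff ℂ _ _ (curvePt_ne_zero d r i)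
      (curvePt_ne_zero d r j)).mp hij
    have e2 : (a : ℂ) * curvePt d r j 2 = curvePt d r i 2 := by rw [← ha]; rfl
    have e1 : (a : ℂ) * curvePt d r j 1 = curvePt d r i 1 := by rw [← ha]; rfl
    rw [curvePt_two, curvePt_two, mul_one] at e2
    rw [e2, one_mul, curvePt_one, curvePt_one] at e1
    have e3 : ((j : ℕ) + 1 : ℝ) = ((i : ℕ) + 1 : ℝ) := Complex.ofReal_injective e1
    have e4 : ((j : ℕ) : ℝ) = ((i : ℕ) : ℝ) := by linarith
    exact Fin.ext (Nat.cast_injective e4).symm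
  · rintro ⟨F, hF0, hFd, hFm⟩
    have hdvd : ∀ i : Fin r, (Polynomial.X - Polynomial.C ((((i : ℕ) + 1 : ℝ)) : ℂ)) ^ (m i) ∣
        aeval (monoCurve d) F := by
      intro i
      apply pow_dvd_aeval_of_multGE
      exact (multGE_rep_iff hFd (curvePt_ne_zero d r i)).mp (hFm i)
    have h1 := complex_fewnomial (aeval (monoCurve d) F) (aeval_monoCurve_ne_zero hFd hF0)
      (fun i : Fin r => ((i : ℕ) + 1 : ℝ))
      (by
        intro i j hij
        have e4 : ((i : ℕ) : ℝ) = ((j : ℕ) : ℝ) := by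
          have : ((i : ℕ) + 1 : ℝ) = ((j : ℕ) + 1 : ℝ) := hij
          linarith
        exact Fin.ext (Nat.cast_injective e4))
      (by intro i; positivity) m hdvd
    have h2 := card_support_aeval_monoCurve hFd
    omega

theorem veryGeneral_sum_lt (r : ℕ) :
    VeryGeneral r fun p => ∀ d m F, IsCurveThrough p d m F → ∑ i, m i < (d + 2).choose 2 := by
  have := veryGeneral_of_forall_exists (r := r) (fun d m => (d + 2).choose 2 ≤ ∑ i, m i)
    (fun d m h => exists_tuple_no_curve d m h)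
  simpa using this

lemma VeryGeneral.mono {r : ℕ} {P Q : (Fin r → Pt) → Prop} (h : VeryGeneral r P)
    (hPQ : ∀ p, P p → Q p) : VeryGeneral r Q := by
  obtain ⟨Zs, h1, h2, h3⟩ := h
  exact ⟨Zs, h1, h2, fun p hp hz => hPQ p (h3 p hp hz)⟩

end Vale.Agent.P279
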