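import Vale.Agent.P279.Kummer2
import Vale.Agent.P279.SmallDeg

namespace Vale.Agent.P279

open MvPolynomial

theorem kummer_transfer (r k : ℕ) (hk : 1 ≤ k) (φ : ℕ → ℕ → Prop)
    (h : VeryGeneral r fun p => ∀ d m F, 1 ≤ d → IsCurveThrough p d m F → φ d (∑ i, m i)) :
    VeryGeneral (k ^ 2 * r) fun p => ∀ d m F, 1 ≤ d → IsCurveThrough p d m F →
      φ (k * d) (∑ i, m i) := by
  classical
  haveI : NeZero k := ⟨by omega⟩
  have hk0 : k ≠ 0 := by omega
  obtain ⟨w, q, hw, hrep, hinj, hP⟩ := h.exists_torus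
  have hu : ∀ i j, ∃ z : ℂ, z ^ k = w i j := fun i j =>
    IsAlgClosed.exists_pow_nat_eq (w i j) (by omega)
  choose u hu using hu
  have hu0 : ∀ i j, u i j ≠ 0 := by
    intro i j h0
    apply hw i j
    rw [← hu i j, h0, zero_pow hk0]
  let ι := Fin r × (rootsOfUnity k ℂ × rootsOfUnity k ℂ)
  have hcard : Fintype.card ι = k ^ 2 * r := by
    rw [Fintype.card_prod, card_mu_prod, Fintype.card_fin]
    ring
  let e : ι ≃ Fin (k ^ 2 * r) := Fintype.equivFinOfCardEq hcard
  let vec : ι → Fin 3 → ℂ := fun y j => cvec y.2 j * u y.1 j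
  have hvec : ∀ y j, vec y j ≠ 0 := fun y j => mul_ne_zero (cvec_ne_zero _ _) (hu0 _ _)
  have hvec0 : ∀ y, vec y ≠ 0 := fun y h0 => hvec y 0 (congrFun h0 0)
  have hvecpow : ∀ y j, vec y j ^ k = w y.1 j := by
    intro y j
    simp only [vec, mul_pow, cvec_pow, one_mul, hu]
  let P : ι → Pt := fun y => Projectivization.mk ℂ (vec y) (hvec0 y)
  have hPinj : Function.Injective P := by
    intro y y' hyy
    obtain ⟨a, ha⟩ := (Projectivization.mk_eq_mk_iff ℂ _ _ (hvec0 y) (hvec0 y')).mp hyy
    have hc : ∀ j, (a : ℂ) * vec y' j = vec y j := fun j => by rw [← ha]; rfl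
    have hi : y.1 = y'.1 := by
      apply hinj
      obtain ⟨h1, h1'⟩ := hrep y.1
      obtain ⟨h2, h2'⟩ := hrep y'.1
      rw [← h1', ← h2', Projectivization.mk_eq_mk_iff]
      refine ⟨a ^ k, ?_⟩
      funext j
      change ((a ^ k : ℂˣ) : ℂ) * w y'.1 j = w y.1 j
      rw [← hvecpow y j, ← hvecpow y' j, ← hc j, Units.val_pow_eq_pow_val, mul_pow (a : ℂ)]
    obtain ⟨i, x1, x2⟩ := y
    obtain ⟨i', x1', x2'⟩ := y'
    simp only at hi
    subst hi
    have ha1 : (a : ℂ) = 1 := by
      have := hc 2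
      simp only [vec, cvec, Matrix.cons_val_two, Matrix.tail_cons, Matrix.head_cons,
        one_mul] at this
      exact mul_right_cancel₀ (hu0 i 2) (by rw [this, one_mul])
    have e1 : x1 = x1' := by
      have := hc 0
      simp only [vec, cvec, Matrix.cons_val_zero, ha1, one_mul] at this
      have h3 := mul_right_cancel₀ (hu0 i 0) this
      exact (Subtype.ext (Units.ext h3)).symm
    have e2 : x2 = x2' := by
      have := hc 1
      simp only [vec, cvec, Matrix.cons_val_one, Matrix.head_cons, ha1, one_mul] at this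
      have h3 := mul_right_cancel₀ (hu0 i 1) this
      exact (Subtype.ext (Units.ext h3)).symm
    rw [e1, e2]
  have main := veryGeneral_of_forall_exists (r := k ^ 2 * r)
    (fun d m => 1 ≤ d ∧ ¬ φ (k * d) (∑ i, m i)) (by
      rintro d m ⟨hd, hbad⟩
      refine ⟨P ∘ e.symm, hPinj.comp e.symm.injective, ?_⟩
      rintro ⟨F, hF0, hFd, hFm⟩
      apply hbad
      obtain ⟨N, hN0, hNd, hN⟩ := exists_norm k hFd hF0
      let M : Fin r → ℕ := fun i => ∑ x : rootsOfUnity k ℂ × rootsOfUnity k ℂ, m (e (i, x))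
      have hcurve : IsCurveThrough q (k * d) M N := by
        refine ⟨hN0, hNd, fun i => ?_⟩
        rw [hrep.multGE_iff hNd]
        have hwi : w i = (u i) ^ k := by
          funext j
          simp [hu]
        rw [hwi]
        apply MultGE.of_expand hk0 (hu0 i)
        rw [hN]
        apply MultGE.prod
        intro x _
        apply MultGE.dil
        have h1 := hFm (e (i, x))
        simp only [Function.comp, Equiv.symm_apply_apply] at h1
        exact (multGE_rep_iff hFd (hvec0 (i, x))).mp h1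
      have h2 := hP (k * d) M N (Nat.mul_pos (by omega) hd) hcurve
      have hsum : ∑ i, M i = ∑ i, m i := by
        rw [← Equiv.sum_comp e m, Fintype.sum_prod_type]
      rwa [hsum] at h2)
  refine main.mono fun p hp d m F hd hF => ?_
  by_contra hne
  exact hp d m F hF ⟨hd, hne⟩

end Vale.Agent.P279
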