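import Vale.Agent.P279.SmallDeg

namespace Vale.Agent.P279

open MvPolynomial

theorem nagataFor_iff_uniform (r : ℕ) (hr : 1 ≤ r) :
    NagataFor r ↔ ∀ d m : ℕ, 1 ≤ d → (d : ℝ) ≤ m * Real.sqrt r →
      ∃ p : Fin r → Pt, Function.Injective p ∧ ¬ ∃ F, IsCurveThrough p d (fun _ => m) F := by
  classical
  haveI : NeZero r := ⟨by omega⟩
  have hsq : Real.sqrt r * Real.sqrt r = r := Real.mul_self_sqrt (Nat.cast_nonneg r)
  have hsqpos : 0 < Real.sqrt r := Real.sqrt_pos.mpr (by exact_mod_cast hr)
  constructor
  · intro h d m hd hdm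
    obtain ⟨w, p, _, _, hinj, hP⟩ := h.exists_torus
    refine ⟨p, hinj, ?_⟩
    rintro ⟨F, hF⟩
    have h1 := hP d _ F hd hF
    simp only [Finset.sum_const, Finset.card_univ, Fintype.card_fin, nsmul_eq_mul] at h1
    have h2 : (d : ℝ) * Real.sqrt r ≤ m * Real.sqrt r * Real.sqrt r :=
      mul_le_mul_of_nonneg_right hdm hsqpos.le
    rw [mul_assoc, hsq] at h2
    nlinarith
  · intro h
    have main := veryGeneral_of_forall_exists (r := r)
      (fun d m => 1 ≤ d ∧ (d : ℝ) * Real.sqrt r ≤ ∑ i, (m i : ℝ)) (by
        rintro d m ⟨hd, hbad⟩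
        obtain ⟨q, hq, hno⟩ := h (r * d) (∑ i, m i) (Nat.mul_pos hr hd) (by
          push_cast
          have := mul_le_mul_of_nonneg_right hbad hsqpos.le
          rw [mul_assoc, hsq] at this
          linarith)
        by_contra hall
        push Not at hall
        apply hno
        have hF : ∀ j : Fin r, ∃ F, IsCurveThrough (q ∘ (· + j)) d m F := fun j =>
          hall (q ∘ (· + j)) (hq.comp (add_left_injective j))
        choose F hF using hF
        refine ⟨∏ j, F j, Finset.prod_ne_zero_iff.mpr fun j _ => (hF j).1, ?_, fun k => ?_⟩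
        · have := IsHomogeneous.prod Finset.univ F (fun _ => d) (fun j _ => (hF j).2.1)
          simpa using this
        · have h1 : MultGE (∏ j, F j) (q k).rep (∑ j, m (k - j)) := by
            apply MultGE.prod
            intro j _
            have := (hF j).2.2 (k - j)
            simpa using this
          have h2 : ∑ j, m (k - j) = ∑ i, m i := Equiv.sum_comp (Equiv.subLeft k) m
          rwa [h2] at h1)
    refine main.mono fun p hp d m F hd hF => ?_
    by_contra hne
    exact hp d m F hF ⟨hd, not_lt.mp hne⟩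

end Vale.Agent.P279
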